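import Vale.Agent.P181.D.R0

/-!
Checking the complete tables.
-/

namespace Vale.Agent.P181.K

set_option maxRecDepth 100000

def r0R : List Nat := [nat_lit 28, nat_lit 28, nat_lit 28, nat_lit 28, nat_lit 27, nat_lit 27, nat_lit 27, nat_lit 26, nat_lit 26, nat_lit 26, nat_lit 25, nat_lit 25, nat_lit 25, nat_lit 24, nat_lit 24, nat_lit 24, nat_lit 23, nat_lit 23, nat_lit 23, nat_lit 22, nat_lit 22, nat_lit 22, nat_lit 21, nat_lit 21, nat_lit 21, nat_lit 20, nat_lit 20, nat_lit 20, nat_lit 19, nat_lit 19, nat_lit 19, nat_lit 18, nat_lit 18, nat_lit 18, nat_lit 17, nat_lit 17, nat_lit 17, nat_lit 16, nat_lit 16, nat_lit 16]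

theorem r0A : chkDats 33 78 6 r0R r0 = true := by decide +kernel

theorem r0B : chkB 33 78 6 0 r0R bb r0 = true := by decide +kernel

end Vale.Agent.P181.K
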