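import Vale.Agent.P181.D.T

/-!
Checking the partial tables.
-/

namespace Vale.Agent.P181.K

set_option maxRecDepth 100000

theorem t1A : chkDats 88 150 6 t1R t1 = true := by decide +kernel

theorem t1B : chkB 88 150 6 12 t1R bb t1 = true := by decide +kernel

theorem t2A : chkDats 61 114 6 t2R t2 = true := by decide +kernel

theorem t2B : chkB 61 114 6 12 t2R bb t2 = true := by decide +kernel

theorem t3A : chkDats 47 96 6 t3R t3 = true := by decide +kernel

theorem t3B : chkB 47 96 6 12 t3R bb t3 = true := by decide +kernel

end Vale.Agent.P181.K
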