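import Vale.Agent.P181.D.T
import Vale.Agent.P181.D.C0

/-!
Checking the central partial table.
-/

namespace Vale.Agent.P181.K

set_option maxRecDepth 100000

theorem t4A : chkDats 37 84 6 t4R t4 = true := by decide +kernel

theorem t4B : chkB 37 84 6 12 t4R bb t4 = true := by decide +kernel

end Vale.Agent.P181.K
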